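import Vale.Agent.P235.R2.AP.Defs
import Vale.Agent.P235.R2.H145.Exact

/-! AP1: on a connected plane map closed functions are exact. -/

namespace Vale.Agent.P235.AP

variable {V : Type} {G : SimpleGraph V}

theorem fc_eq_iff {σ : Equiv.Perm G.Dart} {d d' : G.Dart} :
    fc σ d = fc σ d' ↔ (faceNext σ).SameCycle d d' := Quotient.eq

theorem rowClosed : RowClosed := by
  classical
  intro V _ G σ z hc hσ hz
  have := Fintype.ofFinite V
  obtain ⟨p, hp⟩ := AP145.closed_exact hc hσ z hz.1 (fun d0 => by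
    rw [← hz.2 (fc σ d0)]
    symm
    refine finsum_cond_eq_sum_of_cond_iff _ fun {d} _ => ?_
    rw [Finset.mem_filter, fc_eq_iff]
    exact ⟨fun h => ⟨Finset.mem_univ _, h.symm⟩, fun h => h.2.symm⟩)
  exact ⟨p, hp⟩

end Vale.Agent.P235.AP
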