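import Vale.Agent.P235.H536.PlaneDefs
import Mathlib.Data.Real.Basic
import Mathlib.Algebra.BigOperators.Finprod
import Mathlib.Combinatorics.SimpleGraph.Metric

/-!
# P235, all planar graphs: the medium (definitions only)

`G` finite connected, `PlaneMap G σ`, `u : V → ℤ` a height function with `|u a - u b| = 1` on every
edge.  A configuration is a permutation `π` of the up-darts such that the strand which enters the
face of the up-dart `e` leaves it through the reverse of the up-dart `π e`.  Its cycles are the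
closed curves.
-/

namespace Vale.Agent.P235.AP

variable {V : Type} {G : SimpleGraph V}

/-- the faces of the rotation system `σ` -/
abbrev Fc (σ : Equiv.Perm G.Dart) : Type := Quotient (Equiv.Perm.SameCycle.setoid (faceNext σ))

/-- the face of a dart -/
def fc (σ : Equiv.Perm G.Dart) (d : G.Dart) : Fc σ := Quotient.mk _ d

/-- every edge has height difference one -/
def UnitH (G : SimpleGraph V) (u : V → ℤ) : Prop :=
  ∀ a b, G.Adj a b → u b = u a + 1 ∨ u a = u b + 1

/-- the up-darts (one for every edge) -/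
def Up (G : SimpleGraph V) (u : V → ℤ) : Type := {d : G.Dart // u d.snd = u d.fst + 1}

/-- A configuration: in every face the strands entering through the up-darts of the face leave it
through its down-darts. -/
def Conf (σ : Equiv.Perm G.Dart) (u : V → ℤ) (π : Equiv.Perm (Up G u)) : Prop :=
  ∀ e, fc σ e.1 = fc σ (π e).1.symm

/-- the closed curves of a permutation of the up-darts -/
abbrev Curve {u : V → ℤ} (π : Equiv.Perm (Up G u)) : Type :=
  Quotient (Equiv.Perm.SameCycle.setoid π)

/-- the closed curve through an up-dart -/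
def cv {u : V → ℤ} (π : Equiv.Perm (Up G u)) (e : Up G u) : Curve π := Quotient.mk _ e

/-- a function on the darts is closed: antisymmetric, with sum `0` over every face -/
def Closed (σ : Equiv.Perm G.Dart) (z : G.Dart → ℝ) : Prop :=
  (∀ d : G.Dart, z d.symm = - z d) ∧ ∀ f : Fc σ, ∑ᶠ (d : G.Dart) (_ : fc σ d = f), z d = 0

/-- a function on the darts is exact -/
def Exact (z : G.Dart → ℝ) : Prop := ∃ p : V → ℝ, ∀ d : G.Dart, z d = p d.snd - p d.fst

/-- crossing function of a set `A` of up-darts: `1` on `A`, `-1` on the reversed darts of `A` -/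
noncomputable def zf {u : V → ℤ} (A : Set (Up G u)) (d : G.Dart) : ℝ := by
  classical
  exact (if ∃ e ∈ A, e.1 = d then 1 else 0) - (if ∃ e ∈ A, e.1 = d.symm then 1 else 0)

/-- `W` is a family of potentials of the closed curves of `π`: `W γ` increases by one along the
up-darts of `γ` and does not change along the other edges -/
def IsPot {u : V → ℤ} (π : Equiv.Perm (Up G u)) (W : Curve π → V → ℝ) : Prop :=
  ∀ (γ : Curve π) (d : G.Dart), W γ d.snd - W γ d.fst = zf {e | cv π e = γ} d

/-- a family of potentials of the closed curves (a choice; unique up to constants) -/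
noncomputable def pot {u : V → ℤ} (π : Equiv.Perm (Up G u)) : Curve π → V → ℝ := by
  classical
  exact if h : ∃ W, IsPot π W then h.choose else 0

/-- the norm `∑_γ |W_γ(x) - W_γ(y)|` -/
noncomputable def NN {u : V → ℤ} (π : Equiv.Perm (Up G u)) (x y : V) : ℝ :=
  ∑ᶠ γ : Curve π, |pot π γ x - pot π γ y|

/-- every closed curve meets every face at most once -/
def Simp (σ : Equiv.Perm G.Dart) {u : V → ℤ} (π : Equiv.Perm (Up G u)) : Prop :=
  ∀ e e' : Up G u, cv π e = cv π e' → fc σ e.1 = fc σ e'.1 → e = e'

/-! ## the rows -/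

/-- AP1: on a connected plane map closed functions are exact -/
def RowClosed : Prop :=
  ∀ (V : Type) [Finite V] (G : SimpleGraph V) (σ : Equiv.Perm G.Dart) (z : G.Dart → ℝ),
    G.Connected → PlaneMap G σ → Closed σ z → Exact z

/-- AP2a: the potentials exist -/
def RowPot : Prop :=
  ∀ (V : Type) [Finite V] (G : SimpleGraph V) (σ : Equiv.Perm G.Dart) (u : V → ℤ)
    (π : Equiv.Perm (Up G u)), G.Connected → PlaneMap G σ → UnitH G u → Conf σ u π →
      IsPot π (pot π)

/-- AP2b: the norm of two ends of an edge is one; the norm is at most the distance; the norm is at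
least the height difference -/
def RowNorm : Prop :=
  ∀ (V : Type) [Finite V] (G : SimpleGraph V) (σ : Equiv.Perm G.Dart) (u : V → ℤ)
    (π : Equiv.Perm (Up G u)), G.Connected → PlaneMap G σ → UnitH G u → Conf σ u π →
      (∀ x y, G.Adj x y → NN π x y = 1) ∧ (∀ x y, NN π x y ≤ G.dist x y) ∧
      (∀ x y, |(u x - u y : ℝ)| ≤ NN π x y) ∧ (∀ x y z, NN π x z ≤ NN π x y + NN π y z)

/-- AP3: splitting one closed curve in a face increases all norms -/
def RowSplit : Prop :=
  ∀ (V : Type) [Finite V] [DecidableEq V] (G : SimpleGraph V) [DecidableEq (G.Dart)]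
    (σ : Equiv.Perm G.Dart) (u : V → ℤ) [DecidableEq (Up G u)]
    (π : Equiv.Perm (Up G u)) (e e' : Up G u), G.Connected → PlaneMap G σ → UnitH G u →
      Conf σ u π → e ≠ e' → cv π e = cv π e' → fc σ e.1 = fc σ e'.1 →
      Conf σ u (π * Equiv.swap e e') ∧ (∀ x y, NN π x y ≤ NN (π * Equiv.swap e e') x y) ∧
      Nat.card (Curve π) < Nat.card (Curve (π * Equiv.swap e e'))

/-- AP4: every configuration can be split until all curves are simple -/
def RowEnd : Prop :=
  ∀ (V : Type) [Finite V] (G : SimpleGraph V) (σ : Equiv.Perm G.Dart) (u : V → ℤ)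
    (π : Equiv.Perm (Up G u)), G.Connected → PlaneMap G σ → UnitH G u → Conf σ u π →
      ∃ π' : Equiv.Perm (Up G u), Conf σ u π' ∧ Simp σ π' ∧ ∀ x y, NN π x y ≤ NN π' x y

/-- AP4b: for a simple configuration all potential differences are `0, 1, -1`: the norm is the
number of closed curves which separate `x` and `y` -/
def RowSep : Prop :=
  ∀ (V : Type) [Finite V] (G : SimpleGraph V) (σ : Equiv.Perm G.Dart) (u : V → ℤ)
    (π : Equiv.Perm (Up G u)), G.Connected → PlaneMap G σ → UnitH G u → Conf σ u π → Simp σ π →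
      ∀ x y γ, |pot π γ x - pot π γ y| ≤ 1

/-- AP5: a law on configurations with large mean norm gives an embedding -/
def RowLaw : Prop :=
  ∀ (V : Type) [Finite V] (G : SimpleGraph V) (σ : Equiv.Perm G.Dart) (u : V → ℤ) (c : ℝ)
    (ι : Type) [Finite ι] (p : ι → ℝ) (π : ι → Equiv.Perm (Up G u)),
    G.Connected → PlaneMap G σ → UnitH G u → 0 < c → (∀ i, 0 ≤ p i) → ∑ᶠ i, p i = 1 →
    (∀ i, Conf σ u (π i)) → (∀ x y, c * G.dist x y ≤ ∑ᶠ i, p i * NN (π i) x y) →
    EmbedsL1 (fun x y => (G.dist x y : ℝ)) (1 / c)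

/-- AP7: configurations exist -/
def RowEx : Prop :=
  ∀ (V : Type) [Finite V] (G : SimpleGraph V) (σ : Equiv.Perm G.Dart) (u : V → ℤ),
    UnitH G u → ∃ π : Equiv.Perm (Up G u), Conf σ u π

/-- AP6: rounding, scaling and subdivision.  `S` are the marked vertices of the bipartite unit
graph (all vertices of degree `≠ 2` and the root): the bound may depend on their number only. -/
def RowRound : Prop :=
  ∀ C : ℕ → ℝ,
    (∀ (V : Type) [Finite V] (G : SimpleGraph V) (σ : Equiv.Perm G.Dart) (r : V) (S : Set V),
      G.Connected → PlaneMap G σ → UnitH G (fun v => (G.dist r v : ℤ)) → r ∈ S →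
      (∀ v, Nat.card (G.neighborSet v) ≠ 2 → v ∈ S) →
      EmbedsL1 (fun x y : S => (G.dist x.1 y.1 : ℝ)) (C (Nat.card S))) →
    ∀ (V : Type) [Finite V] (G : SimpleGraph V) (σ : Equiv.Perm G.Dart) (ℓ : Sym2 V → ℝ),
      G.Connected → PlaneMap G σ → (∀ e ∈ G.edgeSet, 0 < ℓ e) →
      EmbedsL1 (pathDist G ℓ) (2 * C (Nat.card V))

end Vale.Agent.P235.AP
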