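import Vale.Agent.P235.R2.AP.Defs
import Vale.Agent.P235.R2.H931.Law

/-!
P235 AP, row AP5 (helper931): a law on configurations with large mean norm gives an embedding.
-/

namespace Vale.Agent.P235.AP

variable {V : Type} {G : SimpleGraph V}

/-- the law with a set `S` of marked vertices -/
theorem law_marked (hN : RowNorm) [Finite V] (σ : Equiv.Perm G.Dart) (u : V → ℤ) {c : ℝ}
    {ι : Type} [Finite ι] (p : ι → ℝ) (π : ι → Equiv.Perm (Up G u)) (S : Set V)
    (hc : G.Connected) (hP : PlaneMap G σ) (hu : UnitH G u) (h0 : 0 < c) (hp : ∀ i, 0 ≤ p i)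
    (hs : ∑ᶠ i, p i = 1) (hπ : ∀ i, Conf σ u (π i))
    (hlow : ∀ x ∈ S, ∀ y ∈ S, c * G.dist x y ≤ ∑ᶠ i, p i * NN (π i) x y) :
    EmbedsL1 (fun x y : S => (G.dist x.1 y.1 : ℝ)) (1 / c) := by
  classical
  have := Fintype.ofFinite V
  have := Fintype.ofFinite ι
  have hD : Finite G.Dart := inferInstance
  have hU : Finite (Up G u) := by
    unfold Up
    infer_instance
  have hF : ∀ i, Fintype (Curve (π i)) := fun i => Fintype.ofFinite _
  rw [finsum_eq_sum_of_fintype] at hs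
  have hNN : ∀ i x y, NN (π i) x y = ∑ γ : Curve (π i), |pot (π i) γ x - pot (π i) γ y| :=
    fun i x y => finsum_eq_sum_of_fintype _
  refine law_embeds h0 (J := fun i => Curve (π i)) p hp hs
    (fun i γ (x : S) => pot (π i) γ x.1) (fun i x y => ?_) (fun x y => ?_)
  · rw [← hNN]
    exact (hN V G σ u (π i) hc hP hu (hπ i)).2.1 _ _
  · refine (hlow x.1 x.2 y.1 y.2).trans (le_of_eq ?_)
    rw [finsum_eq_sum_of_fintype]
    exact Finset.sum_congr rfl fun i _ => by rw [hNN]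

/-- AP5, from AP2b -/
theorem rowLaw (hN : RowNorm) : RowLaw := by
  intro V _ G σ u c ι _ p π hc hP hu h0 hp hs hπ hlow
  have h := law_marked hN σ u p π Set.univ hc hP hu h0 hp hs hπ fun x _ y _ => hlow x y
  obtain ⟨Ω, m, μ, f, hf⟩ := h
  exact ⟨Ω, m, μ, fun x => f ⟨x, Set.mem_univ x⟩, fun x y => hf ⟨x, Set.mem_univ x⟩
    ⟨y, Set.mem_univ y⟩⟩

end Vale.Agent.P235.AP
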